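import Mathlib

/-!
# P372: the abstract hybrid over the sites, without subsets and without partial traces

All objects are linear maps on one matrix algebra. `b s`: trace over the site `s` against the
operator `R̂`, `o s`: trace over the site `s`, `g s`: trace over the site `s` against the noisy
operator, `S`: the noise on all sites.
-/

namespace Vale.Agent.P372.H801

open Matrix
open scoped ComplexOrder

variable {I : Type} [Fintype I] [DecidableEq I] {ι : Type}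

/-- linear maps of a matrix algebra -/
abbrev LM (I : Type) : Type := Matrix I I ℂ →ₗ[ℂ] Matrix I I ℂ

/-- `Z` is a Hermitian corner of `X` and `Y` -/
def Cor (X Y Z : Matrix I I ℂ) : Prop := (fromBlocks X Z Z Y).PosSemidef

/-- two-positivity -/
def TwoPos (Φ : LM I) : Prop := ∀ X W V Y : Matrix I I ℂ, (fromBlocks X W V Y).PosSemidef →
  (fromBlocks (Φ X) (Φ W) (Φ V) (Φ Y)).PosSemidef

theorem TwoPos.cor {Φ : LM I} (h : TwoPos Φ) {X Y Z : Matrix I I ℂ} (hZ : Cor X Y Z) :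
    Cor (Φ X) (Φ Y) (Φ Z) := h _ _ _ _ hZ

/-- values at the start -/
def SV (b : ι → LM I) : List ι → (Matrix I I ℂ →ₗ[ℂ] ℂ) → Matrix I I ℂ → Matrix I I ℂ → ℝ → Prop
  | [], f, X, Y, r => ∃ Z, Cor X Y Z ∧ r = (f Z).re
  | s :: l, f, X, Y, r => ∃ r₁ r₂ : ℝ, SV b l f X Y r₁ ∧ SV b l f (b s X) (b s Y) r₂ ∧
      r = 2 / 3 * r₁ + 1 / 3 * r₂

/-- values at the end -/
def EV (b o : ι → LM I) :
    List ι → (Matrix I I ℂ →ₗ[ℂ] ℂ) → Matrix I I ℂ → Matrix I I ℂ → ℝ → Prop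
  | [], f, X, Y, r => ∃ Z, Cor X Y Z ∧ r = (f Z).re
  | s :: l, f, X, Y, r => ∃ r₁ r₂ : ℝ, EV b o l (f ∘ₗ b s) X Y r₁ ∧
      EV b o l f (o s X) (o s Y) r₂ ∧ r = 1 / 3 * r₁ + 2 / 3 * r₂

theorem cor_mix {b o : LM I} (h : TwoPos ((2 : ℂ) • o - b)) {X Y Z Z' : Matrix I I ℂ}
    (hZ : Cor X Y Z) (hZ' : Cor (b X) (b Y) Z') :
    Cor (o X) (o Y) ((1 / 2 : ℂ) • (Z' + ((2 : ℂ) • o Z - b Z))) := by
  have h1 := h.cor hZ
  have h2 : (((1 / 2 : ℝ) : ℂ) • (fromBlocks (b X) Z' Z' (b Y) +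
      fromBlocks (((2 : ℂ) • o - b) X) (((2 : ℂ) • o - b) Z) (((2 : ℂ) • o - b) Z)
        (((2 : ℂ) • o - b) Y))).PosSemidef :=
    (PosSemidef.add hZ' h1).smul (by exact_mod_cast (by norm_num : (0 : ℝ) ≤ 1 / 2))
  have e : ∀ X : Matrix I I ℂ, (((1 / 2 : ℝ) : ℂ) • (b X + (((2 : ℂ) • o - b) X))) = o X := by
    intro X
    rw [LinearMap.sub_apply, LinearMap.smul_apply, add_sub_cancel, smul_smul]
    norm_num
  have e' : (((1 / 2 : ℝ) : ℂ) • (Z' + (((2 : ℂ) • o - b) Z))) =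
      (1 / 2 : ℂ) • (Z' + ((2 : ℂ) • o Z - b Z)) := by
    rw [LinearMap.sub_apply, LinearMap.smul_apply]
    norm_num
  rw [fromBlocks_add, fromBlocks_smul, e, e, e'] at h2
  exact h2

section hybrid

variable {b o : ι → LM I}
  (hbb : ∀ s t, s ≠ t → ∀ X, b s (b t X) = b t (b s X))
  (hbo : ∀ s t, s ≠ t → ∀ X, b s (o t X) = o t (b s X))
  (hoo : ∀ s t, s ≠ t → ∀ X, o s (o t X) = o t (o s X))
  (hp : ∀ s, TwoPos ((2 : ℂ) • o s - b s))

include hbb hbo hoo hp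

theorem step (s : ι) (l : List ι) (hs : s ∉ l) :
    ∀ (f : Matrix I I ℂ →ₗ[ℂ] ℂ) (X Y : Matrix I I ℂ) (r₁ r₂ : ℝ), (∀ Z, f (o s Z) = f Z) →
      EV b o l f X Y r₁ → EV b o l f (b s X) (b s Y) r₂ →
      ∃ s₁ s₂ : ℝ, EV b o l (f ∘ₗ b s) X Y s₁ ∧ EV b o l f (o s X) (o s Y) s₂ ∧
        2 / 3 * r₁ + 1 / 3 * r₂ = 1 / 3 * s₁ + 2 / 3 * s₂ := by
  induction l with
  | nil =>
    rintro f X Y _ _ hf ⟨Z, hZ, rfl⟩ ⟨Z', hZ', rfl⟩
    refine ⟨_, _, ⟨Z, hZ, rfl⟩, ⟨_, cor_mix (hp s) hZ hZ', rfl⟩, ?_⟩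
    rw [LinearMap.comp_apply, map_smul, map_add, map_sub, map_smul, hf]
    simp only [smul_eq_mul]
    have : ((1 / 2 : ℂ) * (f Z' + (2 * f Z - f (b s Z)))).re =
        1 / 2 * ((f Z').re + (2 * (f Z).re - (f (b s Z)).re)) := by
      rw [show (1 / 2 : ℂ) = ((1 / 2 : ℝ) : ℂ) by norm_num, show (2 : ℂ) = ((2 : ℝ) : ℂ) by norm_num,
        Complex.re_ofReal_mul, Complex.add_re, Complex.sub_re, Complex.re_ofReal_mul]
    rw [this]
    ring
  | cons t l ih =>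
    have hst : s ≠ t := fun h => hs (h ▸ List.mem_cons_self)
    have hsl : s ∉ l := fun h => hs (List.mem_cons_of_mem _ h)
    rintro f X Y _ _ hf ⟨p₁, p₂, h1, h2, rfl⟩ ⟨q₁, q₂, h3, h4, rfl⟩
    rw [← hbo s t hst, ← hbo s t hst] at h4
    obtain ⟨u₁, u₂, h5, h6, e1⟩ := ih hsl (f ∘ₗ b t) X Y p₁ q₁ (fun Z => by
      rw [LinearMap.comp_apply, LinearMap.comp_apply, hbo t s hst.symm, hf]) h1 h3
    obtain ⟨v₁, v₂, h7, h8, e2⟩ := ih hsl f (o t X) (o t Y) p₂ q₂ hf h2 h4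
    have e3 : (f ∘ₗ b t) ∘ₗ b s = (f ∘ₗ b s) ∘ₗ b t := by
      ext1 Z
      simp only [LinearMap.comp_apply]
      rw [hbb t s hst.symm]
    rw [e3] at h5
    rw [hoo s t hst, hoo s t hst] at h8
    refine ⟨_, _, ⟨u₁, v₁, h5, h7, rfl⟩, ⟨u₂, v₂, h6, h8, rfl⟩, ?_⟩
    linarith

theorem sv_ev (l : List ι) (hl : l.Nodup) :
    ∀ (f : Matrix I I ℂ →ₗ[ℂ] ℂ) (X Y : Matrix I I ℂ) (r : ℝ), (∀ s Z, f (o s Z) = f Z) →
      SV b l f X Y r → EV b o l f X Y r := by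
  induction l with
  | nil => exact fun f X Y r _ h => h
  | cons s l ih =>
    rintro f X Y _ hf ⟨r₁, r₂, h1, h2, rfl⟩
    rw [List.nodup_cons] at hl
    obtain ⟨s₁, s₂, h3, h4, e⟩ := step hbb hbo hoo hp s l hl.1 f X Y r₁ r₂ (hf s)
      (ih hl.2 f X Y r₁ hf h1) (ih hl.2 f _ _ r₂ hf h2)
    exact ⟨s₁, s₂, h3, h4, e⟩

end hybrid

/-- the averaged maps -/
noncomputable def RR (b o : ι → LM I) : List ι → LM I
  | [] => LinearMap.id
  | s :: l => ((1 / 3 : ℂ) • b s + (2 / 3 : ℂ) • o s) ∘ₗ RR b o l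

theorem RR_comm {b o : ι → LM I} {Φ : LM I} (l : List ι) (h1 : ∀ s ∈ l, ∀ X, Φ (b s X) = b s (Φ X))
    (h2 : ∀ s ∈ l, ∀ X, Φ (o s X) = o s (Φ X)) (X : Matrix I I ℂ) :
    Φ (RR b o l X) = RR b o l (Φ X) := by
  induction l with
  | nil => rfl
  | cons s l ih =>
    simp only [RR, LinearMap.comp_apply, LinearMap.add_apply, LinearMap.smul_apply, map_add,
      map_smul]
    rw [h1 s List.mem_cons_self, h2 s List.mem_cons_self,
      ih (fun t ht => h1 t (List.mem_cons_of_mem _ ht))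
        (fun t ht => h2 t (List.mem_cons_of_mem _ ht))]

/-- a functional which is nonnegative on positive semidefinite matrices -/
def PosF (f : Matrix I I ℂ →ₗ[ℂ] ℂ) : Prop := ∀ M : Matrix I I ℂ, M.PosSemidef → 0 ≤ (f M).re

theorem pos_block {M : Matrix I I ℂ} (hM : M.PosSemidef) :
    (fromBlocks M 0 0 (0 : Matrix I I ℂ)).PosSemidef := by
  have h := hM.conjTranspose_mul_mul_same (fromCols (1 : Matrix I I ℂ) (0 : Matrix I I ℂ))
  have e : (fromCols (1 : Matrix I I ℂ) (0 : Matrix I I ℂ))ᴴ * M *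
      (fromCols (1 : Matrix I I ℂ) (0 : Matrix I I ℂ)) = fromBlocks M 0 0 0 := by
    rw [conjTranspose_fromCols_eq_fromRows_conjTranspose, fromRows_mul, fromRows_mul_fromCols]
    simp
  rwa [e] at h

theorem TwoPos.pos {Φ : LM I} (h : TwoPos Φ) {M : Matrix I I ℂ} (hM : M.PosSemidef) :
    (Φ M).PosSemidef :=
  (h _ _ _ _ (pos_block hM)).submatrix (Sum.inl : I → I ⊕ I)

theorem PosF.comp {f : Matrix I I ℂ →ₗ[ℂ] ℂ} {Φ : LM I} (hf : PosF f) (h : TwoPos Φ) :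
    PosF (f ∘ₗ Φ) := fun _ hM => hf _ (h.pos hM)

/-- the bound at the end of the hybrid -/
theorem ev_le {b o : ι → LM I} (hbo : ∀ s t, s ≠ t → ∀ X, b s (o t X) = o t (b s X))
    (hoo : ∀ s t, s ≠ t → ∀ X, o s (o t X) = o t (o s X)) (hb : ∀ s, TwoPos (b s))
    (Q : Matrix I I ℂ → Matrix I I ℂ → Matrix I I ℂ → Matrix I I ℂ → Prop)
    (hQ : ∀ s X Y U V, Q X Y U V → Q (o s X) (o s Y) (o s U) (o s V))
    (hcore : ∀ X Y U V Z, Q X Y U V → Cor X Y Z → ∀ t : ℝ, 0 < t →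
      ((t : ℂ) • U + ((t⁻¹ : ℝ) : ℂ) • V - (2 : ℂ) • Z).PosSemidef)
    (t : ℝ) (ht : 0 < t) (l : List ι) (hl : l.Nodup) :
    ∀ (f : Matrix I I ℂ →ₗ[ℂ] ℂ) (X Y U V : Matrix I I ℂ) (r : ℝ), PosF f → Q X Y U V →
      EV b o l f X Y r →
      2 * r ≤ t * (f (RR b o l U)).re + t⁻¹ * (f (RR b o l V)).re := by
  induction l with
  | nil =>
    rintro f X Y U V _ hf hq ⟨Z, hZ, rfl⟩
    have h := hf _ (hcore X Y U V Z hq hZ t ht)
    rw [map_sub, map_add, map_smul, map_smul, map_smul, smul_eq_mul, smul_eq_mul, smul_eq_mul,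
      Complex.sub_re, Complex.add_re, Complex.re_ofReal_mul, Complex.re_ofReal_mul,
      show (2 : ℂ) = ((2 : ℝ) : ℂ) by norm_num, Complex.re_ofReal_mul] at h
    simp only [RR, LinearMap.id_apply]
    linarith
  | cons s l ih =>
    rintro f X Y U V _ hf hq ⟨r₁, r₂, h1, h2, rfl⟩
    rw [List.nodup_cons] at hl
    have h3 := ih hl.2 (f ∘ₗ b s) X Y U V r₁ (hf.comp (hb s)) hq h1
    have h4 := ih hl.2 f _ _ (o s U) (o s V) r₂ hf (hQ s X Y U V hq) h2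
    have hne : ∀ t ∈ l, t ≠ s := fun t ht h => hl.1 (h ▸ ht)
    have e : ∀ U, RR b o l (o s U) = o s (RR b o l U) := fun U =>
      (RR_comm l (fun t ht X => (hbo t s (hne t ht) X).symm)
        (fun t ht X => hoo s t (hne t ht).symm X) U).symm
    have e2 : ∀ U, (f (RR b o (s :: l) U)).re =
        1 / 3 * (f (b s (RR b o l U))).re + 2 / 3 * (f (o s (RR b o l U))).re := by
      intro U
      simp only [RR, LinearMap.comp_apply, LinearMap.add_apply, LinearMap.smul_apply, map_add,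
        map_smul, smul_eq_mul, Complex.add_re]
      rw [show (1 / 3 : ℂ) = ((1 / 3 : ℝ) : ℂ) by norm_num,
        show (2 / 3 : ℂ) = ((2 / 3 : ℝ) : ℂ) by norm_num, Complex.re_ofReal_mul,
        Complex.re_ofReal_mul]
    rw [e, e] at h4
    simp only [LinearMap.comp_apply] at h3
    rw [e2, e2]
    linarith

/-- the averaged functional of the noisy operator -/
noncomputable def GG (g : ι → LM I) : List ι → Matrix I I ℂ → ℂ
  | [], X => X.trace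
  | s :: l, X => 2 / 3 * GG g l X + 1 / 3 * GG g l (g s X)

/-- the start of the hybrid -/
theorem start {b g : ι → LM I} {S : LM I} (hg : ∀ s, TwoPos (g s))
    (hSg : ∀ s X, S (g s X) = b s (S X)) (hgs : ∀ s X, g s Xᴴ = (g s X)ᴴ)
    (P : Matrix I I ℂ → Prop) (hP : ∀ s X, P X → P (g s X))
    (hS : ∀ X W Y : Matrix I I ℂ, P X → (fromBlocks X W Wᴴ Y).PosSemidef →
      ∃ Z, Cor (S X) (S Y) Z ∧ ∀ a c : ℝ, 0 < a → 0 < c →
        2 * ‖W.trace‖ ≤ a * (Z.trace).re + a⁻¹ * ((c * (X.trace).re + c⁻¹ * (Y.trace).re) / 2))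
    (l : List ι) :
    ∀ X W Y : Matrix I I ℂ, P X → (fromBlocks X W Wᴴ Y).PosSemidef →
      ∃ r : ℝ, SV b l (traceLinearMap I ℂ ℂ) (S X) (S Y) r ∧ 0 ≤ (GG g l X).re ∧
        0 ≤ (GG g l Y).re ∧ ∀ a c : ℝ, 0 < a → 0 < c →
          2 * ‖GG g l W‖ ≤ a * r + a⁻¹ * ((c * (GG g l X).re + c⁻¹ * (GG g l Y).re) / 2) := by
  induction l with
  | nil =>
    intro X W Y hX h
    obtain ⟨Z, hZ, h1⟩ := hS X W Y hX h
    have hX : X.PosSemidef := h.submatrix (Sum.inl : I → I ⊕ I)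
    have hY : Y.PosSemidef := h.submatrix (Sum.inr : I → I ⊕ I)
    exact ⟨_, ⟨Z, hZ, rfl⟩, (Complex.nonneg_iff.1 hX.trace_nonneg).1,
      (Complex.nonneg_iff.1 hY.trace_nonneg).1, h1⟩
  | cons s l ih =>
    intro X W Y hX h
    obtain ⟨r₁, h1, hx1, hy1, hb1⟩ := ih X W Y hX h
    have h' : (fromBlocks (g s X) (g s W) (g s W)ᴴ (g s Y)).PosSemidef := by
      rw [← hgs]
      exact hg s _ _ _ _ h
    obtain ⟨r₂, h2, hx2, hy2, hb2⟩ := ih _ _ _ (hP s X hX) h'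
    rw [hSg, hSg] at h2
    have e2 : ∀ U, (GG g (s :: l) U).re = 2 / 3 * (GG g l U).re + 1 / 3 * (GG g l (g s U)).re := by
      intro U
      simp only [GG, Complex.add_re]
      rw [show (1 / 3 : ℂ) = ((1 / 3 : ℝ) : ℂ) by norm_num,
        show (2 / 3 : ℂ) = ((2 / 3 : ℝ) : ℂ) by norm_num, Complex.re_ofReal_mul,
        Complex.re_ofReal_mul]
    refine ⟨_, ⟨r₁, r₂, h1, h2, rfl⟩, by rw [e2]; positivity, by rw [e2]; positivity,
      fun a c ha hc => ?_⟩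
    have e3 : ‖GG g (s :: l) W‖ ≤ 2 / 3 * ‖GG g l W‖ + 1 / 3 * ‖GG g l (g s W)‖ := by
      simp only [GG]
      refine (norm_add_le _ _).trans (le_of_eq ?_)
      rw [norm_mul, norm_mul]
      norm_num
    rw [e2, e2]
    have h3 := hb1 a c ha hc
    have h4 := hb2 a c ha hc
    have e4 : a * (2 / 3 * r₁ + 1 / 3 * r₂) + a⁻¹ * ((c * (2 / 3 * (GG g l X).re +
        1 / 3 * (GG g l (g s X)).re) + c⁻¹ * (2 / 3 * (GG g l Y).re +
        1 / 3 * (GG g l (g s Y)).re)) / 2) =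
        2 / 3 * (a * r₁ + a⁻¹ * ((c * (GG g l X).re + c⁻¹ * (GG g l Y).re) / 2)) +
        1 / 3 * (a * r₂ + a⁻¹ * ((c * (GG g l (g s X)).re + c⁻¹ * (GG g l (g s Y)).re) / 2)) := by
      ring
    rw [e4]
    linarith

theorem amgm {x p q : ℝ} (hx : 0 ≤ x) (hp : 0 ≤ p) (hq : 0 ≤ q)
    (h : ∀ t : ℝ, 0 < t → 2 * x ≤ t * p + t⁻¹ * q) : x ^ 2 ≤ p * q := by
  rcases hx.eq_or_lt with rfl | hx
  · nlinarith [mul_nonneg hp hq]
  rcases hp.eq_or_lt with rfl | hp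
  · have h1 := h ((q + 1) / x) (by positivity)
    rw [mul_zero, zero_add, inv_div] at h1
    have h2 : x / (q + 1) * q ≤ x := by
      rw [div_mul_eq_mul_div, div_le_iff₀ (by positivity)]
      nlinarith
    linarith
  · have h1 := h (x / p) (by positivity)
    rw [div_mul_cancel₀ _ hp.ne', inv_div] at h1
    have h2 : x ≤ p / x * q := by linarith
    rw [div_mul_eq_mul_div, le_div_iff₀ hx] at h2
    nlinarith


/-- from the square form of the start lemma to the linear form -/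
theorem lin_of_sq {x r p q : ℝ} (hx : 0 ≤ x) (hr : 0 ≤ r) (hp : 0 ≤ p) (hq : 0 ≤ q)
    (h : x ^ 2 ≤ r * √(p * q)) (a c : ℝ) (ha : 0 < a) (hc : 0 < c) :
    2 * x ≤ a * r + a⁻¹ * ((c * p + c⁻¹ * q) / 2) := by
  have h2 : √(p * q) ≤ (c * p + c⁻¹ * q) / 2 := by
    rw [Real.sqrt_le_left (by positivity)]
    have h3 : c * c⁻¹ = 1 := mul_inv_cancel₀ hc.ne'
    have h4 : ((c * p + c⁻¹ * q) / 2) ^ 2 - p * q = ((c * p - c⁻¹ * q) / 2) ^ 2 +
        (c * c⁻¹ - 1) * (p * q) := by ring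
    rw [h3, sub_self, zero_mul, add_zero] at h4
    nlinarith [sq_nonneg ((c * p - c⁻¹ * q) / 2)]
  have hsq : 0 ≤ √(p * q) := Real.sqrt_nonneg _
  have ha' : a * a⁻¹ = 1 := mul_inv_cancel₀ ha.ne'
  have hia : 0 < a⁻¹ := inv_pos.2 ha
  have h8 : (2 * x) ^ 2 ≤ (a * r + a⁻¹ * √(p * q)) ^ 2 := by
    have h9 : (a * r + a⁻¹ * √(p * q)) ^ 2 = (a * r - a⁻¹ * √(p * q)) ^ 2 +
        4 * (a * a⁻¹) * (r * √(p * q)) := by ring
    rw [h9, ha']
    nlinarith [sq_nonneg (a * r - a⁻¹ * √(p * q))]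
  have h5 : 2 * x ≤ a * r + a⁻¹ * √(p * q) := (abs_le_of_sq_le_sq' h8 (by positivity)).2
  have h6 := mul_le_mul_of_nonneg_left h2 hia.le
  linarith

theorem trace_RR {b o g : ι → LM I} {S : LM I}
    (hbb : ∀ s t, s ≠ t → ∀ X, b s (b t X) = b t (b s X))
    (hbo : ∀ s t, s ≠ t → ∀ X, b s (o t X) = o t (b s X))
    (ho : ∀ s X, (o s X).trace = X.trace) (hSt : ∀ X, (S X).trace = X.trace)
    (hSg : ∀ s X, S (g s X) = b s (S X)) (l : List ι) (hl : l.Nodup) :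
    ∀ X, (RR b o l (S X)).trace = GG g l X := by
  induction l with
  | nil => exact fun X => hSt X
  | cons s l ih =>
    intro X
    rw [List.nodup_cons] at hl
    have hne : ∀ t ∈ l, s ≠ t := fun t ht h => hl.1 (h ▸ ht)
    simp only [RR, GG, LinearMap.comp_apply, LinearMap.add_apply, LinearMap.smul_apply,
      trace_add, trace_smul, smul_eq_mul]
    rw [ho, RR_comm l (fun t ht X => hbb s t (hne t ht) X) (fun t ht X => hbo s t (hne t ht) X),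
      ← hSg, ih hl.2, ih hl.2]
    ring

theorem GG_nonneg {g : ι → LM I} (hg : ∀ s, TwoPos (g s)) (l : List ι) :
    ∀ X : Matrix I I ℂ, X.PosSemidef → 0 ≤ (GG g l X).re := by
  induction l with
  | nil => exact fun X hX => (Complex.nonneg_iff.1 hX.trace_nonneg).1
  | cons s l ih =>
    intro X hX
    simp only [GG, Complex.add_re]
    rw [show (1 / 3 : ℂ) = ((1 / 3 : ℝ) : ℂ) by norm_num,
      show (2 / 3 : ℂ) = ((2 / 3 : ℝ) : ℂ) by norm_num, Complex.re_ofReal_mul,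
      Complex.re_ofReal_mul]
    have h1 := ih X hX
    have h2 := ih _ ((hg s).pos hX)
    positivity

/-- The abstract theorem. -/
theorem main {b o g : ι → LM I} {S : LM I}
    (hbb : ∀ s t, s ≠ t → ∀ X, b s (b t X) = b t (b s X))
    (hbo : ∀ s t, s ≠ t → ∀ X, b s (o t X) = o t (b s X))
    (hoo : ∀ s t, s ≠ t → ∀ X, o s (o t X) = o t (o s X))
    (hp : ∀ s, TwoPos ((2 : ℂ) • o s - b s)) (hb : ∀ s, TwoPos (b s)) (hg : ∀ s, TwoPos (g s))
    (hgs : ∀ s X, g s Xᴴ = (g s X)ᴴ)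
    (ho : ∀ s X, (o s X).trace = X.trace) (hSt : ∀ X, (S X).trace = X.trace)
    (hSg : ∀ s X, S (g s X) = b s (S X))
    (P : Matrix I I ℂ → Prop) (hP : ∀ s X, P X → P (g s X))
    (hS : ∀ X W Y : Matrix I I ℂ, P X → (fromBlocks X W Wᴴ Y).PosSemidef →
      ∃ Z, Cor (S X) (S Y) Z ∧ ∀ a c : ℝ, 0 < a → 0 < c →
        2 * ‖W.trace‖ ≤ a * (Z.trace).re + a⁻¹ * ((c * (X.trace).re + c⁻¹ * (Y.trace).re) / 2))
    (Q : Matrix I I ℂ → Matrix I I ℂ → Matrix I I ℂ → Matrix I I ℂ → Prop)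
    (hQ : ∀ s X Y U V, Q X Y U V → Q (o s X) (o s Y) (o s U) (o s V))
    (hcore : ∀ X Y U V Z, Q X Y U V → Cor X Y Z → ∀ t : ℝ, 0 < t →
      ((t : ℂ) • U + ((t⁻¹ : ℝ) : ℂ) • V - (2 : ℂ) • Z).PosSemidef)
    (l : List ι) (hl : l.Nodup) (X Y U V W : Matrix I I ℂ) (hX : P X)
    (hU : U.PosSemidef) (hV : V.PosSemidef)
    (hW : (fromBlocks X W Wᴴ Y).PosSemidef) (hq : Q (S X) (S Y) (S U) (S V)) :
    ‖GG g l W‖ ^ 4 ≤ (GG g l X).re * (GG g l Y).re * ((GG g l U).re * (GG g l V).re) := by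
  obtain ⟨r, h1, hx, hy, h2⟩ := start hg hSg hgs P hP hS l X W Y hX hW
  have h3 := sv_ev hbb hbo hoo hp l hl (traceLinearMap I ℂ ℂ) _ _ r (fun s Z => ho s Z) h1
  have hu := GG_nonneg hg l U hU
  have hv := GG_nonneg hg l V hV
  have htr : PosF (traceLinearMap I ℂ ℂ) := fun M hM => (Complex.nonneg_iff.1 hM.trace_nonneg).1
  have h4 : ∀ t : ℝ, 0 < t → 2 * r ≤ t * (GG g l U).re + t⁻¹ * (GG g l V).re := by
    intro t ht
    have h5 := ev_le hbo hoo hb Q hQ hcore t ht l hl (traceLinearMap I ℂ ℂ) _ _ _ _ r htr hq h3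
    rw [traceLinearMap_apply, traceLinearMap_apply,
      trace_RR hbb hbo ho hSt hSg l hl, trace_RR hbb hbo ho hSt hSg l hl] at h5
    exact h5
  set x := ‖GG g l W‖ with hx'
  set p := (GG g l X).re
  set q := (GG g l Y).re
  set u := (GG g l U).re
  set v := (GG g l V).re
  have hx0 : 0 ≤ x := norm_nonneg _
  have h5 : ∀ t c : ℝ, 0 < t → 0 < c →
      x ^ 2 ≤ ((t * u + t⁻¹ * v) / 2) * ((c * p + c⁻¹ * q) / 2) := by
    intro t c ht hc
    refine amgm hx0 (by positivity) (by positivity) fun a ha => ?_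
    have h6 := h2 a c ha hc
    have h7 := mul_le_mul_of_nonneg_left (h4 t ht) ha.le
    linarith
  have h6 : ∀ c : ℝ, 0 < c → (x ^ 2) ^ 2 ≤ ((c * p + c⁻¹ * q) / 2) ^ 2 * (u * v) := by
    intro c hc
    have h7 := amgm (x := x ^ 2) (p := (c * p + c⁻¹ * q) / 2 * u)
      (q := (c * p + c⁻¹ * q) / 2 * v) (sq_nonneg x) (by positivity) (by positivity)
      fun t ht => by
        have h8 := h5 t c ht hc
        nlinarith
    calc (x ^ 2) ^ 2 ≤ _ := h7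
      _ = _ := by ring
  have h7 : ∀ c : ℝ, 0 < c → x ^ 2 ≤ (c * p + c⁻¹ * q) / 2 * √(u * v) := by
    intro c hc
    refine abs_le_of_sq_le_sq' ?_ (by positivity) |>.2
    rw [mul_pow, Real.sq_sqrt (by positivity)]
    exact h6 c hc
  have h8 := amgm (x := x ^ 2) (p := √(u * v) * p) (q := √(u * v) * q) (sq_nonneg x)
    (by positivity) (by positivity) fun c hc => by
      have h9 := h7 c hc
      nlinarith
  have h9 : √(u * v) * p * (√(u * v) * q) = p * q * (u * v) := by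
    have : √(u * v) * √(u * v) = u * v := Real.mul_self_sqrt (by positivity)
    calc _ = (√(u * v) * √(u * v)) * (p * q) := by ring
      _ = _ := by rw [this]; ring
  rw [h9] at h8
  calc x ^ 4 = (x ^ 2) ^ 2 := by ring
    _ ≤ _ := h8

end Vale.Agent.P372.H801
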